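import Vale.Agent.P032.Words.H324.Film
import Vale.Agent.P032.Words.H984.Path

/-!
# Positions on several circles

`σ`: the circles, `X s l`: the closed set, periodic with period six, of the times `u` at which the
letter `l` is available on the circle `s`.  The positions at the time `u` are the points
`u, u + 1, ..., u + 5` of all circles: `PalX X u (k, s)` is the palette at `u + k` on the circle
`s`.
-/

namespace Vale.Agent.P032.Words.H324

open Set Filter Topology

variable {σ Λ : Type*}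

/-- the palettes at the time `u` -/
def PalX (X : σ → Λ → Set ℝ) (u : ℝ) (p : Fin 6 × σ) : Set Λ := {l | u + (p.1.val : ℝ) ∈ X p.2 l}

theorem mem_palX {X : σ → Λ → Set ℝ} {u : ℝ} {p : Fin 6 × σ} {l : Λ} :
    l ∈ PalX X u p ↔ u + (p.1.val : ℝ) ∈ X p.2 l := Iff.rfl

/-- **upper semicontinuity** -/
theorem palX_near [Finite σ] [Finite Λ] {X : σ → Λ → Set ℝ} (hc : ∀ s l, IsClosed (X s l)) (u : ℝ) :
    ∀ᶠ v in 𝓝 u, ∀ p, PalX X v p ⊆ PalX X u p := by
  have h1 : ∀ (p : Fin 6 × σ) (l : Λ), ∀ᶠ v in 𝓝 u, l ∈ PalX X v p → l ∈ PalX X u p := by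
    intro p l
    by_cases hx : l ∈ PalX X u p
    · exact Eventually.of_forall fun v _ => hx
    · have h2 : {v : ℝ | v + (p.1.val : ℝ) ∈ X p.2 l}ᶜ ∈ 𝓝 u :=
        ((hc p.2 l).preimage (continuous_add_const (p.1.val : ℝ))).isOpen_compl.mem_nhds hx
      filter_upwards [h2] with v hv hv'
      exact absurd hv' hv
  filter_upwards [eventually_all.2 fun p => eventually_all.2 (h1 p)] with v hv p l hl
  exact hv p l hl

/-- the rotation of the positions by one step -/
def rotE : Equiv.Perm (Fin 6 × σ) := (Equiv.addRight (1 : Fin 6)).prodCongr (Equiv.refl σ)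

@[simp] theorem rotE_apply (p : Fin 6 × σ) : rotE p = (p.1 + 1, p.2) := rfl

@[simp] theorem rotE_symm_apply (p : Fin 6 × σ) : rotE.symm p = (p.1 - 1, p.2) := by
  rw [Equiv.symm_apply_eq, rotE_apply]
  have : ∀ k : Fin 6, k = k - 1 + 1 := by decide
  exact Prod.ext (this p.1) rfl

/-- **shift by one** -/
theorem palX_add_one {X : σ → Λ → Set ℝ} (hper : ∀ s l u, u + 6 ∈ X s l ↔ u ∈ X s l) (u : ℝ)
    (p : Fin 6 × σ) : PalX X (u + 1) p = PalX X u (rotE p) := by
  obtain ⟨k, s⟩ := p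
  ext l
  rw [mem_palX, mem_palX]
  show u + 1 + (k.val : ℝ) ∈ X s l ↔ u + ((k + 1).val : ℝ) ∈ X s l
  by_cases hk : k = 5
  · subst hk
    have h1 : ((5 : Fin 6) + 1).val = 0 := rfl
    have h2 : (5 : Fin 6).val = 5 := rfl
    rw [h1, h2]
    have : u + 1 + ((5 : ℕ) : ℝ) = (u + ((0 : ℕ) : ℝ)) + 6 := by push_cast; ring
    rw [this, hper]
  · have h1 : (k + 1).val = k.val + 1 := by
      have : ∀ k : Fin 6, k ≠ 5 → (k + 1).val = k.val + 1 := by decide
      exact this k hk
    rw [h1]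
    have : u + 1 + (k.val : ℝ) = u + ((k.val + 1 : ℕ) : ℝ) := by push_cast; ring
    rw [this]

/-- **shift by six** -/
theorem palX_add_six {X : σ → Λ → Set ℝ} (hper : ∀ s l u, u + 6 ∈ X s l ↔ u ∈ X s l) (u : ℝ)
    (p : Fin 6 × σ) : PalX X (u + 6) p = PalX X u p := by
  ext l
  rw [mem_palX, mem_palX]
  have : u + 6 + (p.1.val : ℝ) = (u + (p.1.val : ℝ)) + 6 := by ring
  rw [this, hper]

/-- a selection at the time `u` gives the rotated selection at the time `u + 1` -/
theorem sel_add_one {X : σ → Λ → Set ℝ} (hper : ∀ s l u, u + 6 ∈ X s l ↔ u ∈ X s l)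
    {Leg : (Fin 6 × σ → Λ) → Prop} (hL : ∀ h, Leg (h ∘ rotE) ↔ Leg h) {u : ℝ}
    {h : Fin 6 × σ → Λ} : Sel (PalX X) Leg (u + 1) (h ∘ rotE) ↔ Sel (PalX X) Leg u h := by
  constructor
  · rintro ⟨h1, h2⟩
    refine ⟨(hL h).1 h1, fun p => ?_⟩
    have h3 := h2 (rotE.symm p)
    rw [palX_add_one hper, Equiv.apply_symm_apply] at h3
    have h4 : (h ∘ rotE) (rotE.symm p) = h p := by rw [Function.comp, Equiv.apply_symm_apply]
    rwa [h4] at h3
  · rintro ⟨h1, h2⟩
    refine ⟨(hL h).2 h1, fun p => ?_⟩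
    rw [palX_add_one hper]
    exact h2 (rotE p)

theorem sel_add_one' {X : σ → Λ → Set ℝ} (hper : ∀ s l u, u + 6 ∈ X s l ↔ u ∈ X s l)
    {Leg : (Fin 6 × σ → Λ) → Prop} (hL : ∀ h, Leg (h ∘ rotE) ↔ Leg h) {u : ℝ}
    {h : Fin 6 × σ → Λ} : Sel (PalX X) Leg (u + 1) h ↔ Sel (PalX X) Leg u (h ∘ rotE.symm) := by
  have h1 := sel_add_one hper hL (u := u) (h := h ∘ rotE.symm)
  have h2 : (h ∘ rotE.symm) ∘ rotE = h := by
    funext p
    simp only [Function.comp, Equiv.symm_apply_apply]
  rwa [h2] at h1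

theorem sel_add_six {X : σ → Λ → Set ℝ} (hper : ∀ s l u, u + 6 ∈ X s l ↔ u ∈ X s l)
    {Leg : (Fin 6 × σ → Λ) → Prop} {u : ℝ} {h : Fin 6 × σ → Λ} :
    Sel (PalX X) Leg (u + 6) h ↔ Sel (PalX X) Leg u h := by
  unfold Sel
  rw [forall_congr' fun p => by rw [palX_add_six hper u p]]

/-- the counters of a rotated pair of selections -/
theorem sum_rot {N : Type*} [Fintype σ] [AddCommMonoid N] (τ : Fin 6 × σ → Λ → Λ → N)
    (hτ : ∀ p a b, τ (rotE p) a b = τ p a b) (h h' : Fin 6 × σ → Λ) :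
    ∑ p, τ p ((h ∘ rotE) p) ((h' ∘ rotE) p) = ∑ p, τ p (h p) (h' p) := by
  rw [← Equiv.sum_comp rotE fun p => τ p (h p) (h' p)]
  refine Finset.sum_congr rfl fun p _ => ?_
  rw [hτ]
  rfl

/-- one sided neighbourhoods and shifts -/
theorem eventually_gt_shift {P : ℝ → Prop} {a c : ℝ} :
    (∀ᶠ v in 𝓝[>] (a + c), P v) ↔ ∀ᶠ v in 𝓝[>] a, P (v + c) := by
  constructor
  · intro h
    have ht : Tendsto (fun v : ℝ => v + c) (𝓝[>] a) (𝓝[>] (a + c)) := by
      refine tendsto_nhdsWithin_iff.2 ⟨?_, ?_⟩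
      · exact ((continuous_add_const c).tendsto a).mono_left nhdsWithin_le_nhds
      · filter_upwards [self_mem_nhdsWithin] with v hv
        have : a < v := hv
        exact add_lt_add_of_lt_of_le this le_rfl
    exact ht.eventually h
  · intro h
    have ht : Tendsto (fun v : ℝ => v - c) (𝓝[>] (a + c)) (𝓝[>] a) := by
      refine tendsto_nhdsWithin_iff.2 ⟨?_, ?_⟩
      · have h1 : Tendsto (fun v : ℝ => v - c) (𝓝 (a + c)) (𝓝 (a + c - c)) :=
          (continuous_sub_right c).tendsto _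
        rw [add_sub_cancel_right] at h1
        exact h1.mono_left nhdsWithin_le_nhds
      · filter_upwards [self_mem_nhdsWithin] with v hv
        have : a + c < v := hv
        show a < v - c
        linarith
    filter_upwards [ht.eventually h] with v hv
    rwa [sub_add_cancel] at hv

theorem eventually_lt_shift {P : ℝ → Prop} {a c : ℝ} :
    (∀ᶠ v in 𝓝[<] (a + c), P v) ↔ ∀ᶠ v in 𝓝[<] a, P (v + c) := by
  constructor
  · intro h
    have ht : Tendsto (fun v : ℝ => v + c) (𝓝[<] a) (𝓝[<] (a + c)) := by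
      refine tendsto_nhdsWithin_iff.2 ⟨?_, ?_⟩
      · exact ((continuous_add_const c).tendsto a).mono_left nhdsWithin_le_nhds
      · filter_upwards [self_mem_nhdsWithin] with v hv
        have : v < a := hv
        exact add_lt_add_of_lt_of_le this le_rfl
    exact ht.eventually h
  · intro h
    have ht : Tendsto (fun v : ℝ => v - c) (𝓝[<] (a + c)) (𝓝[<] a) := by
      refine tendsto_nhdsWithin_iff.2 ⟨?_, ?_⟩
      · have h1 : Tendsto (fun v : ℝ => v - c) (𝓝 (a + c)) (𝓝 (a + c - c)) :=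
          (continuous_sub_right c).tendsto _
        rw [add_sub_cancel_right] at h1
        exact h1.mono_left nhdsWithin_le_nhds
      · filter_upwards [self_mem_nhdsWithin] with v hv
        have : v < a + c := hv
        show v - c < a
        linarith
    filter_upwards [ht.eventually h] with v hv
    rwa [sub_add_cancel] at hv

/-- the film of a closed family with a selection at every time -/
theorem film_of [Fintype σ] [Finite Λ] {X : σ → Λ → Set ℝ} (hc : ∀ s l, IsClosed (X s l))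
    {Leg : (Fin 6 × σ → Λ) → Prop} (a b : ℝ)
    (hex : ∀ u ∈ Ioo a b, ∃ h, Sel (PalX X) Leg u h) : Film (PalX X) Leg a b where
  usc := fun u _ => palX_near hc u
  ex := hex

/-- the same in the form of `H984/Path.lean` -/
theorem wd_of [Finite σ] [Finite Λ] {X : σ → Λ → Set ℝ} (hc : ∀ s l, IsClosed (X s l))
    {R : Fin 6 × σ → Fin 6 × σ → Λ → Λ → Prop}
    (hex : ∀ u, ∃ h, Scc.Sel R (PalX X u) h) : Scc.Wd R (PalX X) where
  near := fun u => palX_near hc u
  ex := hex

/-- a legality given by a pairwise rule which is invariant under the rotation -/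
theorem legR_rot {R : Fin 6 × σ → Fin 6 × σ → Λ → Λ → Prop}
    (hR : ∀ p q a b, R (rotE p) (rotE q) a b ↔ R p q a b) (h : Fin 6 × σ → Λ) :
    Scc.LegR R (h ∘ rotE) ↔ Scc.LegR R h := by
  constructor
  · intro h1 p q
    have h2 := h1 (rotE.symm p) (rotE.symm q)
    rw [← hR, Equiv.apply_symm_apply, Equiv.apply_symm_apply] at h2
    simpa only [Function.comp, Equiv.apply_symm_apply] using h2
  · intro h1 p q
    rw [← hR]
    exact h1 (rotE p) (rotE q)

end Vale.Agent.P032.Words.H324
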