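import Mathlib

/-!
# The path lemma for several circles, with any number of marks and counters

A film is a family of palettes `Pal u p` (the letters available at the time `u` at the position `p`),
upper semicontinuous in `u`.  `Inv h n` is a predicate on selections and counters.
-/

namespace Vale.Agent.P032.Words.H324

open Set Filter Topology

variable {ι Λ N : Type*}

/-- `h` is a legal selection at the time `u`. -/
def Sel (Pal : ℝ → ι → Set Λ) (Leg : (ι → Λ) → Prop) (u : ℝ) (h : ι → Λ) : Prop :=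
  Leg h ∧ ∀ p, h p ∈ Pal u p

theorem Sel.of_near {Pal : ℝ → ι → Set Λ} {Leg : (ι → Λ) → Prop} {u v : ℝ} {h : ι → Λ}
    (hs : Sel Pal Leg v h) (hv : ∀ p, Pal v p ⊆ Pal u p) : Sel Pal Leg u h :=
  ⟨hs.1, fun p => hv p (hs.2 p)⟩

/-- A family of palettes on an open interval. -/
structure Film [Fintype ι] (Pal : ℝ → ι → Set Λ) (Leg : (ι → Λ) → Prop) (a b : ℝ) : Prop where
  usc : ∀ u ∈ Ioo a b, ∀ᶠ v in 𝓝 u, ∀ p, Pal v p ⊆ Pal u p
  ex : ∀ u ∈ Ioo a b, ∃ h, Sel Pal Leg u h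

/-- All legal selections at the time `v` satisfy `Inv` with the counter `n`. -/
def All (Pal : ℝ → ι → Set Λ) (Leg : (ι → Λ) → Prop) (Inv : (ι → Λ) → N → Prop) (v : ℝ) (n : N) :
    Prop := ∀ h, Sel Pal Leg v h → Inv h n

section

variable [Fintype ι] [AddCommMonoid N] {Pal : ℝ → ι → Set Λ} {Leg : (ι → Λ) → Prop}
  {Inv : (ι → Λ) → N → Prop} {τ : ι → Λ → Λ → N} {a b : ℝ}

/-- Off the marks `All` is locally constant. -/
theorem Film.all_iff (F : Film Pal Leg a b)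
    (clos : ∀ u ∈ Ioo a b, ∀ h h' n, Sel Pal Leg u h → Sel Pal Leg u h' → Inv h n →
      Inv h' (n + ∑ p, τ p (h p) (h' p)))
    {u : ℝ} (hu : u ∈ Ioo a b) (free : ∀ p, ∀ x ∈ Pal u p, ∀ y ∈ Pal u p, τ p x y = 0) :
    ∀ᶠ v in 𝓝 u, ∀ n, (All Pal Leg Inv v n ↔ All Pal Leg Inv u n) := by
  have hI : ∀ᶠ v in 𝓝 u, v ∈ Ioo a b := Ioo_mem_nhds hu.1 hu.2
  filter_upwards [F.usc u hu, hI] with v hv hvI n
  constructor
  · intro h h' hs'
    obtain ⟨h0, hs0⟩ := F.ex v hvI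
    have h1 := clos u hu h0 h' n (hs0.of_near hv) hs' (h h0 hs0)
    have h2 : ∑ p, τ p (h0 p) (h' p) = 0 :=
      Finset.sum_eq_zero fun p _ => free p _ (hv p (hs0.2 p)) _ (hs'.2 p)
    rwa [h2, add_zero] at h1
  · intro h h' hs'
    exact h h' (hs'.of_near hv)

/-- The value of `All` is the same at all times of an interval without marks. -/
theorem Film.all_const (F : Film Pal Leg a b)
    (clos : ∀ u ∈ Ioo a b, ∀ h h' n, Sel Pal Leg u h → Sel Pal Leg u h' → Inv h n →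
      Inv h' (n + ∑ p, τ p (h p) (h' p)))
    {s : Set ℝ} (hs : IsPreconnected s) (hsI : s ⊆ Ioo a b)
    (free : ∀ u ∈ s, ∀ p, ∀ x ∈ Pal u p, ∀ y ∈ Pal u p, τ p x y = 0)
    {u v : ℝ} (hu : u ∈ s) (hv : v ∈ s) {n : N} (h : All Pal Leg Inv u n) :
    All Pal Leg Inv v n := by
  classical
  set g : ℝ → Prop := fun w => All Pal Leg Inv w n with hg
  have hc : ContinuousOn (fun w => (decide (g w) : Bool)) s := by
    intro x hx
    have h1 := F.all_iff clos (hsI hx) (free x hx)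
    have h2 : ∀ᶠ w in 𝓝 x, (decide (g w) : Bool) = decide (g x) := by
      filter_upwards [h1] with w hw
      simp only [hg]
      exact decide_eq_decide.mpr (hw n)
    have : Tendsto (fun w => (decide (g w) : Bool)) (𝓝 x) (pure (decide (g x))) := by
      rw [tendsto_pure]; exact h2
    exact (this.mono_left nhdsWithin_le_nhds).mono_right (pure_le_nhds _)
  have h3 := hs.constant hc hu hv
  have h4 : decide (g u) = true := decide_eq_true h
  rw [h3] at h4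
  exact of_decide_eq_true h4

/-- Passing an interval without marks. -/
theorem Film.seg (F : Film Pal Leg a b)
    (clos : ∀ u ∈ Ioo a b, ∀ h h' n, Sel Pal Leg u h → Sel Pal Leg u h' → Inv h n →
      Inv h' (n + ∑ p, τ p (h p) (h' p)))
    {c d : ℝ} (hcd : c < d) (hac : a ≤ c) (hdb : d ≤ b)
    (free : ∀ u ∈ Ioo c d, ∀ p, ∀ x ∈ Pal u p, ∀ y ∈ Pal u p, τ p x y = 0) {n : N}
    (h : ∀ᶠ v in 𝓝[>] c, All Pal Leg Inv v n) : ∀ᶠ v in 𝓝[<] d, All Pal Leg Inv v n := by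
  obtain ⟨x, hx1, hx2⟩ := (h.and (Ioo_mem_nhdsGT hcd)).exists
  filter_upwards [Ioo_mem_nhdsLT hcd] with v hv
  exact F.all_const clos isPreconnected_Ioo (Ioo_subset_Ioo hac hdb) free hx2 hv hx1

/-- Passing a mark. -/
theorem Film.jump (F : Film Pal Leg a b)
    (clos : ∀ u ∈ Ioo a b, ∀ h h' n, Sel Pal Leg u h → Sel Pal Leg u h' → Inv h n →
      Inv h' (n + ∑ p, τ p (h p) (h' p)))
    {u : ℝ} (hu : u ∈ Ioo a b) {δ : N}
    (mark : ∀ᶠ v in 𝓝[<] u, ∀ᶠ v' in 𝓝[>] u, ∀ h h', Sel Pal Leg v h → Sel Pal Leg v' h' →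
      ∑ p, τ p (h p) (h' p) = δ) {n : N}
    (h : ∀ᶠ v in 𝓝[<] u, All Pal Leg Inv v n) :
    ∀ᶠ v in 𝓝[>] u, All Pal Leg Inv v (n + δ) := by
  have h0 := F.usc u hu
  have hI : ∀ᶠ v in 𝓝 u, v ∈ Ioo a b := Ioo_mem_nhds hu.1 hu.2
  have hl : ∀ᶠ v in 𝓝[<] u, (∀ p, Pal v p ⊆ Pal u p) ∧ v ∈ Ioo a b :=
    (h0.and hI).filter_mono nhdsWithin_le_nhds
  obtain ⟨x, ⟨hx1, hx2⟩, hx3, hx4⟩ := (hl.and (mark.and h)).exists
  obtain ⟨g, hg⟩ := F.ex x hx2
  filter_upwards [hx3, h0.filter_mono nhdsWithin_le_nhds] with v hv hv2 h' hs'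
  have h1 := clos u hu g h' n (hg.of_near hx1) (hs'.of_near hv2) (hx4 g hg)
  rwa [hv g h' hg hs'] at h1

/-- THE PATH LEMMA. -/
theorem Film.path (F : Film Pal Leg a b) (hab : a < b)
    (clos : ∀ u ∈ Ioo a b, ∀ h h' n, Sel Pal Leg u h → Sel Pal Leg u h' → Inv h n →
      Inv h' (n + ∑ p, τ p (h p) (h' p)))
    (S : Finset ℝ) (δ : ℝ → N) (hS : ∀ u ∈ S, u ∈ Ioo a b)
    (free : ∀ u ∈ Ioo a b, u ∉ S → ∀ p, ∀ x ∈ Pal u p, ∀ y ∈ Pal u p, τ p x y = 0)
    (mark : ∀ u ∈ S, ∀ᶠ v in 𝓝[<] u, ∀ᶠ v' in 𝓝[>] u, ∀ h h', Sel Pal Leg v h →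
      Sel Pal Leg v' h' → ∑ p, τ p (h p) (h' p) = δ u)
    (n0 : N) (h0 : ∀ᶠ v in 𝓝[>] a, All Pal Leg Inv v n0) :
    ∀ᶠ v in 𝓝[<] b, All Pal Leg Inv v (n0 + ∑ u ∈ S, δ u) := by
  classical
  -- induction on the set of marks, from the left
  have key : ∀ m : ℕ, ∀ (S : Finset ℝ), S.card = m → ∀ (c : ℝ), a ≤ c → c < b →
      (∀ u ∈ S, u ∈ Ioo c b) →
      (∀ u ∈ Ioo c b, u ∉ S → ∀ p, ∀ x ∈ Pal u p, ∀ y ∈ Pal u p, τ p x y = 0) →
      (∀ u ∈ S, ∀ᶠ v in 𝓝[<] u, ∀ᶠ v' in 𝓝[>] u, ∀ h h', Sel Pal Leg v h →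
        Sel Pal Leg v' h' → ∑ p, τ p (h p) (h' p) = δ u) →
      ∀ n0, (∀ᶠ v in 𝓝[>] c, All Pal Leg Inv v n0) →
      ∀ᶠ v in 𝓝[<] b, All Pal Leg Inv v (n0 + ∑ u ∈ S, δ u) := by
    intro m
    induction m with
    | zero =>
      intro S hm c hac hcb _ free _ n0 h0
      rw [Finset.card_eq_zero] at hm
      subst hm
      simp only [Finset.sum_empty, add_zero]
      exact F.seg clos hcb hac le_rfl (fun u hu => free u hu (Finset.notMem_empty u)) h0
    | succ m ih =>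
      intro S hm c hac hcb hS free mark n0 h0
      have hne : S.Nonempty := by
        rw [← Finset.card_pos, hm]; exact Nat.succ_pos m
      set e := S.min' hne with he
      have heS : e ∈ S := S.min'_mem hne
      have heI := hS e heS
      have h1 : ∀ᶠ v in 𝓝[<] e, All Pal Leg Inv v n0 := by
        refine F.seg clos heI.1 hac heI.2.le (fun u hu => ?_) h0
        refine free u ⟨hu.1, hu.2.trans heI.2⟩ fun hus => ?_
        exact absurd hu.2 (not_lt.mpr (S.min'_le u hus))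
      have h2 := F.jump clos ⟨lt_of_le_of_lt hac heI.1, heI.2⟩ (mark e heS) h1
      have h3 := ih (S.erase e) (by rw [Finset.card_erase_of_mem heS, hm]; rfl) e
        (hac.trans heI.1.le) heI.2
        (fun u hu => by
          rw [Finset.mem_erase] at hu
          exact ⟨lt_of_le_of_ne (S.min'_le u hu.2) (Ne.symm hu.1), (hS u hu.2).2⟩)
        (fun u hu hus => by
          refine free u ⟨heI.1.trans hu.1, hu.2⟩ fun h => hus ?_
          rw [Finset.mem_erase]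
          exact ⟨hu.1.ne', h⟩)
        (fun u hu => mark u (Finset.mem_of_mem_erase hu)) (n0 + δ e) h2
      filter_upwards [h3] with v hv
      rw [← Finset.add_sum_erase S δ heS, ← add_assoc]
      exact hv
  exact key S.card S rfl a le_rfl hab hS free mark n0 h0

end

end Vale.Agent.P032.Words.H324
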